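import Vale.Agent.Lib.P019.Line

/-!
# Rational pencils are isotropic; the mod-`ℓ` Milnor datum is degenerate in transcendence degree one
-/

namespace Vale.Agent.Results.P019.TrdegOne

open Vale.Agent.Lib.P019 TensorProduct

theorem countable_algClosure (F : Type) [Field F] [Countable F] :
    Countable (AlgebraicClosure F) := by
  rw [← Cardinal.mk_le_aleph0_iff]
  refine (Algebra.IsAlgebraic.cardinalMk_le_max F (AlgebraicClosure F)).trans ?_
  exact max_le Cardinal.mk_le_aleph0 le_rfl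

theorem result (ℓ : ℕ) [Fact ℓ.Prime] :
    (∀ (k K : Type) [Field k] [IsAlgClosed k] [Field K] [Algebra k K] (u : K) (x y : Kˣ),
      (x : K) ∈ IntermediateField.adjoin k {u} → (y : K) ∈ IntermediateField.adjoin k {u} →
      cls ℓ K x ⊗ₜ[ZMod ℓ] cls ℓ K y ∈ steinberg ℓ K) ∧
    (∀ (k : Type) [Field k] [IsAlgClosed k], steinberg ℓ (RatFunc k) = ⊤) ∧
    (∀ (k l : Type) [Field k] [IsAlgClosed k] [Field l] [IsAlgClosed l]
      (Θ : V ℓ (RatFunc k) ≃ₗ[ZMod ℓ] V ℓ (RatFunc l)), Compatible ℓ Θ) ∧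
    (∀ (p : ℕ) [Fact p.Prime],
      (∃ Θ : V ℓ (RatFunc (AlgebraicClosure ℚ)) ≃ₗ[ZMod ℓ]
          V ℓ (RatFunc (AlgebraicClosure (ZMod p))), Compatible ℓ Θ) ∧
      IsEmpty (RatFunc (AlgebraicClosure ℚ) ≃+*
        PerfectClosure (RatFunc (AlgebraicClosure (ZMod p))) p)) := by
  refine ⟨?_, ?_, ?_, ?_⟩
  · intro k K _ _ _ _ u x y hx hy
    obtain ⟨p, q, hpq⟩ := IntermediateField.mem_adjoin_simple_iff k (x : K) |>.1 hx
    obtain ⟨r, s, hrs⟩ := IntermediateField.mem_adjoin_simple_iff k (y : K) |>.1 hy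
    rw [← c0_unit, ← c0_unit, hpq, hrs]
    exact pencil_isotropic ℓ k K u _ (ratfun_mem_pencil ℓ k K u p q) _
      (ratfun_mem_pencil ℓ k K u r s)
  · intro k _ _
    exact steinberg_ratFunc ℓ k
  · intro k l _ _ _ _ Θ
    unfold Compatible
    rw [steinberg_ratFunc, steinberg_ratFunc, Submodule.map_top, LinearMap.range_eq_top]
    exact TensorProduct.map_surjective Θ.surjective Θ.surjective
  · intro p _
    refine ⟨?_, ⟨fun e => ?_⟩⟩
    · have h1 : Countable (AlgebraicClosure ℚ) := countable_algClosure ℚ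
      have h2 : Countable (AlgebraicClosure (ZMod p)) := countable_algClosure (ZMod p)
      exact exists_compatible ℓ (AlgebraicClosure ℚ) (AlgebraicClosure (ZMod p))
    · have h0 : ((p : ℕ) : PerfectClosure (RatFunc (AlgebraicClosure (ZMod p))) p) = 0 :=
        CharP.cast_eq_zero _ p
      have h1 : ((p : ℕ) : RatFunc (AlgebraicClosure ℚ)) = 0 := by
        apply e.injective
        rw [map_natCast, h0, map_zero]
      exact (Fact.out : p.Prime).ne_zero (Nat.cast_eq_zero.1 h1)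

end Vale.Agent.Results.P019.TrdegOne
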