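import Vale.Agent.Results.P019.NonGeometric
import Vale.Agent.Results.P019.TrdegOne

/-!
# The mod-`ℓ` Milnor datum in transcendence degree one: degeneracy and non-geometric automorphisms
-/

namespace Vale.Agent.Results.P019.A_Combined

open Vale.Agent.Lib.P019 TensorProduct

/-- rational pencils are isotropic; degeneracy in transcendence degree one -/
def S1 (ℓ : ℕ) [Fact ℓ.Prime] : Prop :=
    (∀ (k K : Type) [Field k] [IsAlgClosed k] [Field K] [Algebra k K] (u : K) (x y : Kˣ),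
      (x : K) ∈ IntermediateField.adjoin k {u} → (y : K) ∈ IntermediateField.adjoin k {u} →
      cls ℓ K x ⊗ₜ[ZMod ℓ] cls ℓ K y ∈ steinberg ℓ K) ∧
    (∀ (k : Type) [Field k] [IsAlgClosed k], steinberg ℓ (RatFunc k) = ⊤) ∧
    (∀ (k l : Type) [Field k] [IsAlgClosed k] [Field l] [IsAlgClosed l]
      (Θ : V ℓ (RatFunc k) ≃ₗ[ZMod ℓ] V ℓ (RatFunc l)), Compatible ℓ Θ) ∧
    (∀ (p : ℕ) [Fact p.Prime],
      (∃ Θ : V ℓ (RatFunc (AlgebraicClosure ℚ)) ≃ₗ[ZMod ℓ]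
          V ℓ (RatFunc (AlgebraicClosure (ZMod p))), Compatible ℓ Θ) ∧
      IsEmpty (RatFunc (AlgebraicClosure ℚ) ≃+*
        PerfectClosure (RatFunc (AlgebraicClosure (ZMod p))) p))

/-- a compatible automorphism that is not induced by a field automorphism -/
def S2 (ℓ : ℕ) [Fact ℓ.Prime] : Prop :=
    ∀ (k : Type) [Field k] [IsAlgClosed k] [CharZero k],
      ∃ Θ : V ℓ (RatFunc k) ≃ₗ[ZMod ℓ] V ℓ (RatFunc k), Compatible ℓ Θ ∧
        ∀ (c : ZMod ℓ) (α : RatFunc k ≃+* RatFunc k), ∃ x : (RatFunc k)ˣ,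
          Θ (cls ℓ (RatFunc k) x)
            ≠ c • cls ℓ (RatFunc k) (Units.map (α : RatFunc k →* RatFunc k) x)

theorem result (ℓ : ℕ) [Fact ℓ.Prime] : S1 ℓ ∧ S2 ℓ :=
  ⟨Vale.Agent.Results.P019.TrdegOne.result ℓ,
    fun k _ _ _ => Vale.Agent.Results.P019.NonGeometric.result ℓ k⟩

end Vale.Agent.Results.P019.A_Combined
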