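import Vale.Agent.Lib.P019.NonGeom

/-!
# In transcendence degree one there are compatible automorphisms not induced by field automorphisms
-/

namespace Vale.Agent.Results.P019.NonGeometric

open Vale.Agent.Lib.P019 TensorProduct

theorem result (ℓ : ℕ) [Fact ℓ.Prime] (k : Type) [Field k] [IsAlgClosed k] [CharZero k] :
    ∃ Θ : V ℓ (RatFunc k) ≃ₗ[ZMod ℓ] V ℓ (RatFunc k), Compatible ℓ Θ ∧
      ∀ (c : ZMod ℓ) (α : RatFunc k ≃+* RatFunc k), ∃ x : (RatFunc k)ˣ,
        Θ (cls ℓ (RatFunc k) x)
          ≠ c • cls ℓ (RatFunc k) (Units.map (α : RatFunc k →* RatFunc k) x) := by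
  refine ⟨theta ℓ k, ?_, theta_not_geometric ℓ k⟩
  unfold Compatible
  rw [steinberg_ratFunc, Submodule.map_top, LinearMap.range_eq_top]
  exact TensorProduct.map_surjective (theta ℓ k).surjective (theta ℓ k).surjective

end Vale.Agent.Results.P019.NonGeometric
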